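import Vale.Agent.P133.H832.Diag
import Mathlib.Analysis.CStarAlgebra.ContinuousFunctionalCalculus.Order

set_option linter.all false

/-!
P133 (helper102): the diagonalization part (D2) of the density of certificates.
-/

open scoped ComplexOrder

namespace Vale.Agent.P133.R2.H102

open Vale.Agent.P133.H832

universe u

section

variable {A : Type u} [NonUnitalCStarAlgebra A] [PartialOrder A] [StarOrderedRing A]

theorem norm_le_three {x y : A} (h1 : -y ≤ x) (h2 : x ≤ y) : ‖x‖ ≤ 3 * ‖y‖ := by
  have h3 : 0 ≤ x + y := neg_le_iff_add_nonneg.1 h1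
  have h4 : x + y ≤ y + y := add_le_add h2 le_rfl
  have h5 : ‖x + y‖ ≤ ‖y + y‖ := CStarAlgebra.norm_le_norm_of_nonneg_of_le h3 h4
  calc ‖x‖ = ‖(x + y) - y‖ := by rw [add_sub_cancel_right]
    _ ≤ ‖x + y‖ + ‖y‖ := norm_sub_le _ _
    _ ≤ ‖y + y‖ + ‖y‖ := by gcongr
    _ ≤ (‖y‖ + ‖y‖) + ‖y‖ := by gcongr; exact norm_add_le _ _
    _ = 3 * ‖y‖ := by ring

theorem norm_sum_signed {K : Type} [Fintype K] (x y : K → A) (hy : ∀ k, -(y k) ≤ x k ∧ x k ≤ y k)
    (σ : K → ℝ) (hσ : ∀ k, σ k = 1 ∨ σ k = -1) : ‖∑ k, σ k • x k‖ ≤ 3 * ‖∑ k, y k‖ := by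
  apply norm_le_three
  · rw [← Finset.sum_neg_distrib]
    refine Finset.sum_le_sum fun k _ => ?_
    rcases hσ k with h | h <;> rw [h]
    · rw [one_smul]; exact (hy k).1
    · rw [neg_smul, one_smul]; exact neg_le_neg (hy k).2
  · refine Finset.sum_le_sum fun k _ => ?_
    rcases hσ k with h | h <;> rw [h]
    · rw [one_smul]; exact (hy k).2
    · rw [neg_smul, one_smul]; exact neg_le.1 (hy k).1

/-- the norm of the sum of the `U U*` for almost orthogonal contractions -/
theorem norm_range_sum {K : Type} [Fintype K] [DecidableEq K] (U : K → A) (hU : ∀ k, ‖U k‖ ≤ 1)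
    {ε : ℝ} (hε : 0 ≤ ε) (ho : ∀ k l, k ≠ l → ‖star (U k) * U l‖ ≤ ε)
    (hs : (Fintype.card K : ℝ) ^ 2 * ε ≤ 1) : ‖∑ k, U k * star (U k)‖ ≤ 2 := by
  set P := ∑ k, U k * star (U k) with hP
  have hPsa : IsSelfAdjoint P := by
    rw [hP]
    exact isSelfAdjoint_sum _ fun k _ => IsSelfAdjoint.mul_star_self _
  have e1 : P * P = ∑ k, U k * (star (U k) * U k) * star (U k) +
      ∑ k, ∑ l ∈ Finset.univ.erase k, U k * (star (U k) * U l) * star (U l) := by
    rw [← Finset.sum_add_distrib, hP, Finset.sum_mul_sum]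
    refine Finset.sum_congr rfl fun k _ => ?_
    rw [← Finset.add_sum_erase _ _ (Finset.mem_univ k)]
    congr 1
    · simp only [mul_assoc]
    · refine Finset.sum_congr rfl fun l _ => ?_
      simp only [mul_assoc]
  have e2 : ‖∑ k, U k * (star (U k) * U k) * star (U k)‖ ≤ ‖P‖ := by
    apply CStarAlgebra.norm_le_norm_of_nonneg_of_le
    · exact Finset.sum_nonneg fun k _ =>
        star_right_conjugate_nonneg (star_mul_self_nonneg (U k)) (U k)
    · rw [hP]
      refine Finset.sum_le_sum fun k _ => ?_
      refine (CStarAlgebra.star_right_conjugate_le_norm_smul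
        (IsSelfAdjoint.star_mul_self (U k))).trans ?_
      have h1 : ‖star (U k) * U k‖ ≤ 1 := by
        rw [CStarRing.norm_star_mul_self]
        exact mul_le_one₀ (hU k) (norm_nonneg _) (hU k)
      calc ‖star (U k) * U k‖ • (U k * star (U k)) ≤ (1 : ℝ) • (U k * star (U k)) :=
            smul_le_smul_of_nonneg_right h1 (mul_star_self_nonneg _)
        _ = _ := one_smul _ _
  have e3 : ‖∑ k, ∑ l ∈ Finset.univ.erase k, U k * (star (U k) * U l) * star (U l)‖ ≤
      (Fintype.card K : ℝ) ^ 2 * ε := by
    calc _ ≤ ∑ k : K, ∑ _l ∈ Finset.univ.erase k, ε := by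
          refine norm_sum_le_of_le _ fun k _ => norm_sum_le_of_le _ fun l hl => ?_
          have hkl : k ≠ l := (Finset.ne_of_mem_erase hl).symm
          calc ‖U k * (star (U k) * U l) * star (U l)‖
              ≤ ‖U k‖ * ‖star (U k) * U l‖ * ‖star (U l)‖ :=
                (norm_mul_le _ _).trans (mul_le_mul_of_nonneg_right (norm_mul_le _ _)
                  (norm_nonneg _))
            _ ≤ 1 * ε * 1 := by
                rw [norm_star]
                gcongr
                · exact hU k
                · exact ho k l hkl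
                · exact hU l
            _ = ε := by ring
      _ ≤ ∑ _k : K, ∑ _l : K, ε := by
          refine Finset.sum_le_sum fun k _ => ?_
          exact Finset.sum_le_sum_of_subset_of_nonneg (Finset.subset_univ _) fun _ _ _ => hε
      _ = _ := by
          rw [Finset.sum_const, Finset.sum_const, Finset.card_univ, nsmul_eq_mul, nsmul_eq_mul]
          ring
  have e4 : ‖P‖ * ‖P‖ ≤ ‖P‖ + 1 := by
    rw [← CStarRing.norm_star_mul_self (x := P), hPsa.star_eq, e1]
    exact (norm_add_le _ _).trans (add_le_add e2 (e3.trans hs))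
  nlinarith [norm_nonneg P]

/-- the Diag part with signs -/
theorem dtwo_core (hD : Diag A) (n : ℕ) (b : Fin n → A) (hb : ∀ k, ‖b k‖ ≤ 1) (σ s : Fin n → ℝ)
    (hσ : ∀ k, σ k = 1 ∨ σ k = -1) (d0 : A) (η : ℝ) (hη : 0 ≤ η)
    (hs : ∀ k, -(η • (star (b k) * b k)) ≤
        star (b k) * d0 * b k - s k • (star (b k) * b k) ∧
      star (b k) * d0 * b k - s k • (star (b k) * b k) ≤ η • (star (b k) * b k))
    (h0 : ∑ k, σ k • (star (b k) * b k) = 0) (h1 : ∑ k, (σ k * s k) • (star (b k) * b k) = 0)
    (r τ : ℝ) (hr : 0 < r) (hτ : 0 < τ) :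
    ∃ D : Fin n → A, (∀ k, ‖D k‖ ≤ 1) ∧
      ‖∑ k, σ k • (star (b k * D k) * (b k * D k))‖ ≤ τ ∧
      ‖∑ k, σ k • (star (b k * D k) *
          (d0 + r • ∑ l, σ l • ((b l * D l) * star (b l * D l))) * (b k * D k)) -
        r • ∑ k, (star (b k) * b k) * (star (b k) * b k)‖ ≤
          3 * η * (‖∑ k, star (b k) * b k‖ + 1) + τ ∧
      ‖r • ∑ l, σ l • ((b l * D l) * star (b l * D l))‖ ≤ 6 * r := by
  classical
  set S : ℝ := ∑ k, |s k| with hS
  have hS0 : 0 ≤ S := Finset.sum_nonneg fun _ _ => abs_nonneg _
  have hSk : ∀ k, |s k| ≤ S := fun k =>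
    Finset.single_le_sum (f := fun k => |s k|) (fun _ _ => abs_nonneg _) (Finset.mem_univ k)
  have hn0 : (0 : ℝ) ≤ n := Nat.cast_nonneg n
  obtain ⟨ε, hε, hε1, hε2, hε3⟩ : ∃ ε : ℝ, 0 < ε ∧ ε ≤ 1 ∧ (n : ℝ) ^ 2 * ε ≤ 1 ∧
      (n + n * S + r * (2 * n + n ^ 2)) * ε ≤ min τ 1 := by
    set X : ℝ := (n : ℝ) ^ 2 + (n + n * S + r * (2 * n + n ^ 2)) + 1 with hX
    have hX1 : 1 ≤ X := by
      have : 0 ≤ (n : ℝ) ^ 2 + (n + n * S + r * (2 * n + n ^ 2)) := by positivity
      linarith
    have hX0 : 0 < X := by linarith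
    have hm : 0 < min τ 1 := lt_min hτ one_pos
    refine ⟨min τ 1 / X, by positivity, ?_, ?_, ?_⟩
    · rw [div_le_one hX0]; exact (min_le_right _ _).trans hX1
    · rw [mul_div_assoc', div_le_one hX0]
      have h2 : (n : ℝ) ^ 2 * min τ 1 ≤ (n : ℝ) ^ 2 * 1 :=
        mul_le_mul_of_nonneg_left (min_le_right _ _) (by positivity)
      have : 0 ≤ (n + n * S + r * (2 * n + n ^ 2)) := by positivity
      linarith
    · rw [mul_div_assoc', div_le_iff₀ hX0, mul_comm]
      apply mul_le_mul_of_nonneg_left _ hm.le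
      have : 0 ≤ (n : ℝ) ^ 2 := by positivity
      linarith
  obtain ⟨D, hD1, hD2⟩ := hD n b ε hε
  set U : Fin n → A := fun k => b k * D k with hU
  set E : Fin n → A := fun k => star (b k) * b k with hE
  have hUn : ∀ k, ‖U k‖ ≤ 1 := fun k =>
    (norm_mul_le _ _).trans (mul_le_one₀ (hb k) (norm_nonneg _) (hD1 k))
  have hEn : ∀ k, ‖E k‖ ≤ 1 := fun k => by
    show ‖star (b k) * b k‖ ≤ 1
    rw [CStarRing.norm_star_mul_self]
    exact mul_le_one₀ (hb k) (norm_nonneg _) (hb k)
  have hG : ∀ k, ‖star (U k) * U k - E k‖ ≤ ε := fun k => by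
    have := (hD2 k k).le
    rwa [if_pos rfl] at this
  have hO : ∀ k l, k ≠ l → ‖star (U k) * U l‖ ≤ ε := fun k l hkl => by
    have := (hD2 k l).le
    rwa [if_neg hkl, sub_zero] at this
  have hσn : ∀ k, |σ k| = 1 := fun k => by
    rcases hσ k with h | h <;> rw [h] <;> norm_num
  -- (a)
  have a1 : ∀ c : Fin n → ℝ, (∀ k, |c k| ≤ 1 + S) → ∑ k, c k • E k = 0 →
      ∀ C : ℝ, (∀ k, |c k| ≤ C) → ‖∑ k, c k • (star (U k) * U k)‖ ≤ n * C * ε := by
    intro c _ hc0 C hC
    have : ∑ k, c k • (star (U k) * U k) = ∑ k, c k • (star (U k) * U k - E k) := by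
      simp only [smul_sub, Finset.sum_sub_distrib, hc0, sub_zero]
    rw [this]
    calc _ ≤ ∑ _k : Fin n, C * ε := by
          refine norm_sum_le_of_le _ fun k _ => ?_
          rw [norm_smul, Real.norm_eq_abs]
          exact mul_le_mul (hC k) (hG k) (norm_nonneg _) ((abs_nonneg _).trans (hC k))
      _ = _ := by rw [Finset.sum_const, Finset.card_univ, Fintype.card_fin, nsmul_eq_mul]; ring
  have A1 := a1 σ (fun k => by rw [hσn]; linarith) h0 1 (fun k => (hσn k).le)
  have A2 := a1 (fun k => σ k * s k) (fun k => by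
    show |σ k * s k| ≤ _
    rw [abs_mul, hσn, one_mul]; linarith [hSk k]) h1 S (fun k => by
    show |σ k * s k| ≤ _
    rw [abs_mul, hσn, one_mul]; exact hSk k)
  have hne : (n : ℝ) * ε ≤ min τ 1 := by
    refine le_trans ?_ hε3
    apply mul_le_mul_of_nonneg_right _ hε.le
    have : 0 ≤ n * S + r * (2 * n + n ^ 2) := by positivity
    linarith
  -- (c)
  have C1 : ‖∑ l, σ l • (U l * star (U l))‖ ≤ 6 := by
    have h2 := norm_sum_signed (fun l => U l * star (U l)) (fun l => U l * star (U l))
      (fun k => ⟨(neg_nonpos.2 (mul_star_self_nonneg (U k))).trans (mul_star_self_nonneg (U k)),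
        le_rfl⟩) σ hσ
    have h3 := norm_range_sum U hUn hε.le hO (by rw [Fintype.card_fin]; exact hε2)
    linarith
  refine ⟨D, hD1, ?_, ?_, ?_⟩
  · calc ‖∑ k, σ k • (star (U k) * U k)‖ ≤ n * 1 * ε := A1
      _ = n * ε := by ring
      _ ≤ τ := hne.trans (min_le_left _ _)
  · -- (b)
    set z : A := r • ∑ l, σ l • (U l * star (U l)) with hz
    have b1 : ∑ k, σ k • (star (U k) * (d0 + z) * U k) =
        ∑ k, σ k • (star (U k) * d0 * U k - s k • (star (U k) * U k)) +
        ∑ k, (σ k * s k) • (star (U k) * U k) + ∑ k, σ k • (star (U k) * z * U k) := by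
      rw [← Finset.sum_add_distrib, ← Finset.sum_add_distrib]
      refine Finset.sum_congr rfl fun k _ => ?_
      rw [mul_add, add_mul, smul_add, smul_sub, mul_smul]
      abel
    have b2 : ‖∑ k, σ k • (star (U k) * d0 * U k - s k • (star (U k) * U k))‖ ≤
        3 * η * (‖∑ k, E k‖ + 1) := by
      have h2 := norm_sum_signed
        (fun k => star (U k) * d0 * U k - s k • (star (U k) * U k))
        (fun k => η • (star (U k) * U k)) (fun k => by
          have e1 : star (U k) * d0 * U k - s k • (star (U k) * U k) =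
              star (D k) * (star (b k) * d0 * b k - s k • (star (b k) * b k)) * D k := by
            show star (b k * D k) * d0 * (b k * D k) - s k • (star (b k * D k) * (b k * D k)) = _
            rw [star_mul, mul_sub, sub_mul, mul_smul_comm, smul_mul_assoc]
            simp only [mul_assoc]
          have e2 : η • (star (U k) * U k) = star (D k) * (η • (star (b k) * b k)) * D k := by
            show η • (star (b k * D k) * (b k * D k)) = _
            rw [star_mul, mul_smul_comm, smul_mul_assoc]
            simp only [mul_assoc]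
          have e3 : -(η • (star (U k) * U k)) =
              star (D k) * (-(η • (star (b k) * b k))) * D k := by
            rw [e2, mul_neg, neg_mul]
          show -(η • (star (U k) * U k)) ≤ star (U k) * d0 * U k - s k • (star (U k) * U k) ∧
            star (U k) * d0 * U k - s k • (star (U k) * U k) ≤ η • (star (U k) * U k)
          rw [e3, e1, e2]
          exact ⟨star_left_conjugate_le_conjugate (hs k).1 (D k),
            star_left_conjugate_le_conjugate (hs k).2 (D k)⟩) σ hσ
      have h3 : ‖∑ k, η • (star (U k) * U k)‖ ≤ η * (‖∑ k, E k‖ + 1) := by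
        rw [← Finset.smul_sum, norm_smul, Real.norm_of_nonneg hη]
        apply mul_le_mul_of_nonneg_left _ hη
        have h4 : ∑ k, star (U k) * U k = ∑ k, E k + ∑ k, (star (U k) * U k - E k) := by
          rw [Finset.sum_sub_distrib]; abel
        rw [h4]
        refine (norm_add_le _ _).trans (add_le_add le_rfl ?_)
        calc _ ≤ ∑ _k : Fin n, ε := norm_sum_le_of_le _ fun k _ => hG k
          _ = n * ε := by rw [Finset.sum_const, Finset.card_univ, Fintype.card_fin, nsmul_eq_mul]
          _ ≤ 1 := hne.trans (min_le_right _ _)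
      calc _ ≤ 3 * ‖∑ k, η • (star (U k) * U k)‖ := h2
        _ ≤ 3 * (η * (‖∑ k, E k‖ + 1)) := by gcongr
        _ = _ := by ring
    have b3 : ‖∑ k, σ k • (star (U k) * z * U k) - r • ∑ k, E k * E k‖ ≤
        r * (2 * n + n ^ 2) * ε := by
      have e1 : ∀ k, σ k • (star (U k) * z * U k) =
          r • ∑ l, (σ k * σ l) • ((star (U k) * U l) * (star (U l) * U k)) := by
        intro k
        rw [hz, mul_smul_comm, smul_mul_assoc, smul_comm, Finset.mul_sum, Finset.sum_mul,
          Finset.smul_sum]
        congr 1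
        refine Finset.sum_congr rfl fun l _ => ?_
        rw [mul_smul_comm, smul_mul_assoc, smul_smul]
        simp only [mul_assoc]
      have e2 : ∑ k, σ k • (star (U k) * z * U k) - r • ∑ k, E k * E k =
          r • ∑ k, (((star (U k) * U k) * (star (U k) * U k) - E k * E k) +
            ∑ l ∈ Finset.univ.erase k,
              (σ k * σ l) • ((star (U k) * U l) * (star (U l) * U k))) := by
        rw [Finset.sum_congr rfl fun k _ => e1 k, ← Finset.smul_sum, ← smul_sub,
          ← Finset.sum_sub_distrib]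
        congr 1
        refine Finset.sum_congr rfl fun k _ => ?_
        rw [← Finset.add_sum_erase _ _ (Finset.mem_univ k)]
        have : σ k * σ k = 1 := by rcases hσ k with h | h <;> rw [h] <;> norm_num
        rw [this, one_smul]
        abel
      rw [e2, norm_smul, Real.norm_of_nonneg hr.le, mul_assoc]
      apply mul_le_mul_of_nonneg_left _ hr.le
      calc _ ≤ ∑ _k : Fin n, (2 * ε + n * ε) := by
            refine norm_sum_le_of_le _ fun k _ => (norm_add_le _ _).trans (add_le_add ?_ ?_)
            · have h2 : (star (U k) * U k) * (star (U k) * U k) - E k * E k =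
                  (star (U k) * U k) * (star (U k) * U k - E k) +
                    (star (U k) * U k - E k) * E k := by
                rw [mul_sub, sub_mul]; abel
              rw [h2]
              have h3 : ‖star (U k) * U k‖ ≤ 1 := by
                rw [CStarRing.norm_star_mul_self]
                exact mul_le_one₀ (hUn k) (norm_nonneg _) (hUn k)
              calc _ ≤ ‖(star (U k) * U k) * (star (U k) * U k - E k)‖ +
                    ‖(star (U k) * U k - E k) * E k‖ := norm_add_le _ _
                _ ≤ 1 * ε + ε * 1 := by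
                    gcongr
                    · exact (norm_mul_le _ _).trans (mul_le_mul h3 (hG k) (norm_nonneg _)
                        zero_le_one)
                    · exact (norm_mul_le _ _).trans (mul_le_mul (hG k) (hEn k) (norm_nonneg _)
                        hε.le)
                _ = 2 * ε := by ring
            · calc _ ≤ ∑ _l ∈ Finset.univ.erase k, ε := by
                    refine norm_sum_le_of_le _ fun l hl => ?_
                    have hkl : k ≠ l := (Finset.ne_of_mem_erase hl).symm
                    rw [norm_smul, Real.norm_eq_abs, abs_mul, hσn, hσn, one_mul, one_mul]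
                    calc _ ≤ ‖star (U k) * U l‖ * ‖star (U l) * U k‖ := norm_mul_le _ _
                      _ ≤ ε * 1 := by
                          apply mul_le_mul (hO k l hkl) ((hO l k hkl.symm).trans hε1)
                            (norm_nonneg _) hε.le
                      _ = ε := mul_one _
                _ ≤ ∑ _l : Fin n, ε :=
                    Finset.sum_le_sum_of_subset_of_nonneg (Finset.subset_univ _)
                      fun _ _ _ => hε.le
                _ = n * ε := by
                    rw [Finset.sum_const, Finset.card_univ, Fintype.card_fin, nsmul_eq_mul]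
        _ = _ := by
            rw [Finset.sum_const, Finset.card_univ, Fintype.card_fin, nsmul_eq_mul]; ring
    rw [b1]
    have b4 : ∑ k, σ k • (star (U k) * d0 * U k - s k • (star (U k) * U k)) +
        ∑ k, (σ k * s k) • (star (U k) * U k) + ∑ k, σ k • (star (U k) * z * U k) -
        r • ∑ k, E k * E k =
        ∑ k, σ k • (star (U k) * d0 * U k - s k • (star (U k) * U k)) +
        (∑ k, (σ k * s k) • (star (U k) * U k) +
          (∑ k, σ k • (star (U k) * z * U k) - r • ∑ k, E k * E k)) := by abel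
    rw [b4]
    refine (norm_add_le _ _).trans (add_le_add b2 ((norm_add_le _ _).trans ?_))
    calc _ ≤ n * S * ε + r * (2 * n + n ^ 2) * ε := add_le_add A2 b3
      _ ≤ (n + n * S + r * (2 * n + n ^ 2)) * ε := by nlinarith
      _ ≤ τ := hε3.trans (min_le_left _ _)
  · rw [norm_smul, Real.norm_of_nonneg hr.le]
    nlinarith

/-- (D2) two families -/
theorem dtwo (hD : Diag A) (m : ℕ) (a : Fin m → A) (ha : ∀ i, ‖a i‖ ≤ 1)
    (hsum : ‖∑ i, star (a i) * a i‖ ≤ 2) (s : Fin m → ℝ) (d0 : A) (η : ℝ) (hη : 0 ≤ η)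
    (hs : ∀ i, -(η • (star (a i) * a i)) ≤
        star (a i) * d0 * a i - s i • (star (a i) * a i) ∧
      star (a i) * d0 * a i - s i • (star (a i) * a i) ≤ η • (star (a i) * a i))
    (r τ : ℝ) (hr : 0 < r) (hτ : 0 < τ) :
    ∃ (D D' : Fin m → A) (z0 : A), (∀ i, ‖D i‖ ≤ 1) ∧ (∀ i, ‖D' i‖ ≤ 1) ∧
      z0 = r • ∑ i, ((a i * D i) * star (a i * D i) - (a i * D' i) * star (a i * D' i)) ∧
      ‖z0‖ ≤ 6 * r ∧
      ‖∑ i, (star (a i * D i) * (a i * D i) - star (a i * D' i) * (a i * D' i))‖ ≤ τ ∧
      ‖∑ i, (star (a i * D i) * (d0 + z0) * (a i * D i) -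
          star (a i * D' i) * (d0 + z0) * (a i * D' i)) -
        (2 * r) • ∑ i, (star (a i) * a i) * (star (a i) * a i)‖ ≤ 15 * η + τ := by
  obtain ⟨D, h1, h2, h3, h4⟩ := dtwo_core hD (m + m) (Fin.append a a)
    (fun k => by
      refine Fin.addCases (fun i => ?_) (fun i => ?_) k
      · rw [Fin.append_left]; exact ha i
      · rw [Fin.append_right]; exact ha i)
    (Fin.append (fun _ => 1) (fun _ => -1)) (Fin.append s s)
    (fun k => by
      refine Fin.addCases (fun i => ?_) (fun i => ?_) k
      · rw [Fin.append_left]; exact Or.inl rfl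
      · rw [Fin.append_right]; exact Or.inr rfl)
    d0 η hη
    (fun k => by
      refine Fin.addCases (fun i => ?_) (fun i => ?_) k
      · rw [Fin.append_left, Fin.append_left]; exact hs i
      · rw [Fin.append_right, Fin.append_right]; exact hs i)
    (by
      rw [Fin.sum_univ_add]
      simp only [Fin.append_left, Fin.append_right]
      rw [← Finset.sum_add_distrib]
      exact Finset.sum_eq_zero fun i _ => by rw [one_smul, neg_smul, one_smul, add_neg_cancel])
    (by
      rw [Fin.sum_univ_add]
      simp only [Fin.append_left, Fin.append_right]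
      rw [← Finset.sum_add_distrib]
      exact Finset.sum_eq_zero fun i _ => by
        rw [← add_smul]; ring_nf; rw [zero_smul])
    r τ hr hτ
  have key : ∀ f : A → A → A, ∑ k : Fin (m + m), (Fin.append (fun _ => (1 : ℝ))
      (fun _ => (-1 : ℝ)) k) • f (Fin.append a a k) (D k) =
      ∑ i : Fin m, (f (a i) (D (Fin.castAdd m i)) - f (a i) (D (Fin.natAdd m i))) := by
    intro f
    rw [Fin.sum_univ_add]
    simp only [Fin.append_left, Fin.append_right]
    rw [← Finset.sum_add_distrib]
    refine Finset.sum_congr rfl fun i _ => ?_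
    rw [one_smul, neg_smul, one_smul, sub_eq_add_neg]
  have k1 := key (fun x y => star (x * y) * (x * y))
  have k3 := key (fun x y => (x * y) * star (x * y))
  rw [k3] at h4
  rw [k1] at h2
  refine ⟨fun i => D (Fin.castAdd m i), fun i => D (Fin.natAdd m i), _, fun i => h1 _,
    fun i => h1 _, rfl, h4, h2, ?_⟩
  have k2 := key (fun x y => star (x * y) * (d0 + r • ∑ i, ((a i * D (Fin.castAdd m i)) *
    star (a i * D (Fin.castAdd m i)) - (a i * D (Fin.natAdd m i)) *
    star (a i * D (Fin.natAdd m i)))) * (x * y))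
  rw [k3, k2] at h3
  have e1 : ∑ k : Fin (m + m), (star (Fin.append a a k) * Fin.append a a k) *
      (star (Fin.append a a k) * Fin.append a a k) =
      (2 : ℝ) • ∑ i, (star (a i) * a i) * (star (a i) * a i) := by
    rw [Fin.sum_univ_add]
    simp only [Fin.append_left, Fin.append_right]
    rw [two_smul]
  have e2 : ‖∑ k : Fin (m + m), star (Fin.append a a k) * Fin.append a a k‖ ≤ 4 := by
    rw [Fin.sum_univ_add]
    simp only [Fin.append_left, Fin.append_right]
    exact (norm_add_le _ _).trans (by linarith)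
  rw [e1, smul_smul, mul_comm r 2] at h3
  refine h3.trans ?_
  nlinarith

end

end Vale.Agent.P133.R2.H102
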